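import Mathlib
open Finset

namespace Vale.Agent.Lib.P034

/-- `G` covers `F`: every member of `F` contains a member of `G`. -/
def Covers {X : Type*} (G F : Finset (Finset X)) : Prop := ∀ H ∈ F, ∃ S ∈ G, S ⊆ H

/-- The cost of a family `G` at `p`: the sum of `p ^ |S|` over `S` in `G`. -/
def cost {X : Type*} (G : Finset (Finset X)) (p : ℝ) : ℝ := ∑ S ∈ G, p ^ S.card

/-- `F` is `p`-small: some cover of `F` has cost at most `1/2` at `p`. -/
def IsSmall {X : Type*} (F : Finset (Finset X)) (p : ℝ) : Prop :=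
  ∃ G : Finset (Finset X), Covers G F ∧ cost G p ≤ 1 / 2

/-- `g` is a fractional cover of `F`: values in `[0,1]` and every member `H` of `F`
receives total weight at least `1` from its subsets. -/
def IsFracCover {X : Type*} (g : Finset X → ℝ) (F : Finset (Finset X)) : Prop :=
  (∀ S, 0 ≤ g S ∧ g S ≤ 1) ∧ ∀ H ∈ F, 1 ≤ ∑ S ∈ H.powerset, g S

/-- The cost of a fractional cover at `p`: the sum of `g S * p ^ |S|` over all `S`. -/
def fracCost {X : Type*} [Fintype X] (g : Finset X → ℝ) (p : ℝ) : ℝ :=
  ∑ S : Finset X, g S * p ^ S.card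

/-- `R` is connected with respect to the hypergraph `E`: it is nonempty and for every nonempty
proper subset `S` of `R` some hyperedge of `E` contained in `R` meets `S` and is not inside `S`. -/
def IsCluster {X : Type*} (E : Finset (Finset X)) (R : Finset X) : Prop :=
  R.Nonempty ∧ ∀ S ⊆ R, S.Nonempty → S ≠ R → ∃ T ∈ E, T ⊆ R ∧ ¬ Disjoint T S ∧ ¬ T ⊆ S

end Vale.Agent.Lib.P034
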