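import Mathlib
open Finset

namespace Vale.Agent.Lib.P034

theorem sum_biUnion_le_of_nonneg {ι α : Type*} [DecidableEq ι] [DecidableEq α] (s : Finset ι) (t : ι → Finset α)
    (f : α → ℝ) (hf : ∀ x, 0 ≤ f x) :
    ∑ x ∈ s.biUnion t, f x ≤ ∑ i ∈ s, ∑ x ∈ t i, f x := by
  induction s using Finset.induction_on with
  | empty => simp
  | insert a s ha ih =>
    rw [Finset.biUnion_insert, Finset.sum_insert ha]
    have h1 : ∑ x ∈ t a ∪ s.biUnion t, f x ≤ ∑ x ∈ t a, f x + ∑ x ∈ s.biUnion t, f x := by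
      rw [← Finset.sum_union_inter]
      have : 0 ≤ ∑ x ∈ t a ∩ s.biUnion t, f x := Finset.sum_nonneg (fun x _ => hf x)
      linarith
    linarith

theorem sum_weights (N : ℕ) : ∑ j ∈ range N, ((j : ℝ) + 1) / 2 ^ j = 4 - (2 * N + 4) / 2 ^ N := by
  induction N with
  | zero => norm_num
  | succ n ih =>
    rw [Finset.sum_range_succ, ih]
    have : (2:ℝ)^n ≠ 0 := by positivity
    field_simp
    push_cast
    ring

theorem sum_half (N : ℕ) : ∑ j ∈ range N, ((1:ℝ) / 2) ^ (j + 2) ≤ 1 / 2 := by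
  have : ∑ j ∈ range N, ((1:ℝ) / 2) ^ (j + 2) = 1 / 2 - (1 / 2) ^ (N + 1) := by
    induction N with
    | zero => norm_num
    | succ n ih =>
      rw [Finset.sum_range_succ, ih]
      ring
  rw [this]
  have : (0:ℝ) ≤ (1 / 2) ^ (N + 1) := by positivity
  linarith

/-- cost of all `k`-subsets -/
theorem powersetCard_cost {ι : Type*} [DecidableEq ι] (I : Finset ι) (z : ι → ℝ) (hz : ∀ i ∈ I, 0 ≤ z i)
    (k : ℕ) (t : ℝ) (ht : 0 < t) :
    ∑ B ∈ powersetCard k I, ∏ i ∈ B, z i ≤ (1 / t) ^ k * Real.exp (t * ∑ i ∈ I, z i) := by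
  have h1 : ∑ B ∈ powersetCard k I, ∏ i ∈ B, (t * z i) ≤ ∏ i ∈ I, (1 + t * z i) := by
    rw [Finset.prod_one_add]
    apply Finset.sum_le_sum_of_subset_of_nonneg
    · intro B hB
      rw [Finset.mem_powersetCard] at hB
      exact Finset.mem_powerset.mpr hB.1
    · intro B hB _
      apply Finset.prod_nonneg
      intro i hi
      have := hz i (Finset.mem_powerset.mp hB hi)
      positivity
  have h2 : ∏ i ∈ I, (1 + t * z i) ≤ Real.exp (t * ∑ i ∈ I, z i) := by
    rw [Finset.mul_sum, Real.exp_sum]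
    apply Finset.prod_le_prod
    · intro i hi
      have := hz i hi
      positivity
    · intro i _
      have := Real.add_one_le_exp (t * z i)
      linarith
  have h3 : ∑ B ∈ powersetCard k I, ∏ i ∈ B, (t * z i) = t ^ k * ∑ B ∈ powersetCard k I, ∏ i ∈ B, z i := by
    rw [Finset.mul_sum]
    apply Finset.sum_congr rfl
    intro B hB
    rw [Finset.prod_mul_distrib, Finset.prod_const, (Finset.mem_powersetCard.mp hB).2]
  have h4 : t ^ k * ∑ B ∈ powersetCard k I, ∏ i ∈ B, z i ≤ Real.exp (t * ∑ i ∈ I, z i) := by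
    rw [← h3]; exact h1.trans h2
  have htk : 0 < t ^ k := by positivity
  rw [one_div, inv_pow]
  rw [inv_mul_eq_div, le_div_iff₀ htk]
  linarith

theorem linear_case {ι : Type*} [DecidableEq ι] (I : Finset ι) (w y : ι → ℝ)
    (hw0 : ∀ i ∈ I, 0 < w i) (hw1 : ∀ i ∈ I, w i ≤ 1) (hy : ∀ i, 0 ≤ y i)
    (hsum : ∑ i ∈ I, w i * y i ≤ 1 / 6) :
    ∃ BB : Finset (Finset ι), (∀ B ∈ BB, B ⊆ I) ∧
      (∀ A ⊆ I, 1 / 2 ≤ ∑ i ∈ A, w i → ∃ B ∈ BB, B ⊆ A) ∧
      ∑ B ∈ BB, ∏ i ∈ B, (y i / 786432) ≤ 1 / 2 := by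
  classical
  have hex : ∀ i, ∃ n : ℕ, i ∈ I → (((1:ℝ) / 2) ^ (n + 1) < w i ∧ w i ≤ ((1:ℝ) / 2) ^ n) := by
    intro i
    by_cases hi : i ∈ I
    · obtain ⟨n, hn⟩ := exists_nat_pow_near_of_lt_one (hw0 i hi) (hw1 i hi)
        (show (0:ℝ) < 1 / 2 by norm_num) (show (1:ℝ) / 2 < 1 by norm_num)
      exact ⟨n, fun _ => hn⟩
    · exact ⟨0, fun h => absurd h hi⟩
  choose c hc using hex
  set N := I.sup c + 1 with hN
  have hcN : ∀ i ∈ I, c i ∈ range N := by
    intro i hi
    rw [Finset.mem_range, hN]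
    exact Nat.lt_succ_of_le (Finset.le_sup hi)
  set Ij : ℕ → Finset ι := fun j => I.filter (fun i => c i = j) with hIj
  set μ : ℕ → ℝ := fun j => ∑ i ∈ Ij j, w i * y i with hμ
  set a : ℕ → ℝ := fun j => μ j + ((j : ℝ) + 1) / 2 ^ j / 16 with ha
  set k : ℕ → ℕ := fun j => ⌈(2:ℝ) ^ j * a j⌉₊ with hk
  have hμ0 : ∀ j, 0 ≤ μ j := by
    intro j
    apply Finset.sum_nonneg
    intro i hi
    have hiI : i ∈ I := (Finset.mem_filter.mp hi).1
    exact mul_nonneg (hw0 i hiI).le (hy i)
  have hμsum : ∑ j ∈ range N, μ j = ∑ i ∈ I, w i * y i :=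
    Finset.sum_fiberwise_of_maps_to hcN _
  have hasum : ∑ j ∈ range N, a j < 1 / 2 := by
    have h1 : ∑ j ∈ range N, a j = ∑ j ∈ range N, μ j + (∑ j ∈ range N, ((j : ℝ) + 1) / 2 ^ j) / 16 := by
      rw [Finset.sum_div, ← Finset.sum_add_distrib]
    rw [h1, hμsum, sum_weights]
    have : (0:ℝ) ≤ (2 * N + 4) / 2 ^ N := by positivity
    linarith
  have hk1 : ∀ j, (2:ℝ) ^ j * a j ≤ k j := fun j => Nat.le_ceil _
  have hk16 : ∀ j, j + 1 ≤ 16 * k j := by
    intro j
    have h1 : ((j : ℝ) + 1) / 16 ≤ (2:ℝ) ^ j * a j := by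
      have h2 : (2:ℝ) ^ j * a j = (2:ℝ) ^ j * μ j + ((j : ℝ) + 1) / 16 := by
        simp only [ha]
        have : (2:ℝ) ^ j ≠ 0 := by positivity
        field_simp
      rw [h2]
      have : 0 ≤ (2:ℝ) ^ j * μ j := mul_nonneg (by positivity) (hμ0 j)
      linarith
    have h3 : ((j : ℝ) + 1) ≤ 16 * (k j : ℝ) := by
      have := hk1 j
      linarith
    exact_mod_cast h3
  refine ⟨(range N).biUnion (fun j => powersetCard (k j) (Ij j)), ?_, ?_, ?_⟩
  · intro B hB
    rw [Finset.mem_biUnion] at hB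
    obtain ⟨j, _, hBj⟩ := hB
    exact (Finset.mem_powersetCard.mp hBj).1.trans (Finset.filter_subset _ _)
  · intro A hA hAw
    by_contra hcon
    push Not at hcon
    have hall : ∀ j ∈ range N, ∑ i ∈ A.filter (fun i => c i = j), w i ≤ a j := by
      intro j hj
      by_contra hlt
      push Not at hlt
      have hcard : k j ≤ (A.filter (fun i => c i = j)).card := by
        apply Nat.ceil_le.mpr
        have h1 : ∑ i ∈ A.filter (fun i => c i = j), w i ≤ (A.filter (fun i => c i = j)).card * ((1:ℝ) / 2) ^ j := by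
          rw [← nsmul_eq_mul]
          apply Finset.sum_le_card_nsmul
          intro i hi
          rw [Finset.mem_filter] at hi
          have := (hc i (hA hi.1)).2
          rw [hi.2] at this
          exact this
        have h2 : a j < (A.filter (fun i => c i = j)).card * ((1:ℝ) / 2) ^ j := lt_of_lt_of_le hlt h1
        have h3 : (2:ℝ) ^ j * (((A.filter (fun i => c i = j)).card : ℝ) * ((1:ℝ) / 2) ^ j) = (A.filter (fun i => c i = j)).card := by
          rw [one_div, inv_pow]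
          have : (2:ℝ) ^ j ≠ 0 := by positivity
          field_simp
        have h4 : (2:ℝ) ^ j * a j < (2:ℝ) ^ j * (((A.filter (fun i => c i = j)).card : ℝ) * ((1:ℝ) / 2) ^ j) :=
          mul_lt_mul_of_pos_left h2 (by positivity)
        rw [h3] at h4
        exact h4.le
      obtain ⟨B, hBsub, hBcard⟩ := Finset.exists_subset_card_eq hcard
      apply hcon B
      · rw [Finset.mem_biUnion]
        refine ⟨j, hj, ?_⟩
        rw [Finset.mem_powersetCard]
        refine ⟨?_, hBcard⟩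
        intro i hi
        have := hBsub hi
        rw [Finset.mem_filter] at this
        exact Finset.mem_filter.mpr ⟨hA this.1, this.2⟩
      · exact hBsub.trans (Finset.filter_subset _ _)
    have h5 : ∑ i ∈ A, w i = ∑ j ∈ range N, ∑ i ∈ A.filter (fun i => c i = j), w i :=
      (Finset.sum_fiberwise_of_maps_to (fun i hi => hcN i (hA hi)) _).symm
    have h6 : ∑ i ∈ A, w i ≤ ∑ j ∈ range N, a j := by
      rw [h5]; exact Finset.sum_le_sum hall
    linarith
  · have hnn : ∀ B : Finset ι, 0 ≤ ∏ i ∈ B, (y i / 786432) := by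
      intro B
      apply Finset.prod_nonneg
      intro i _
      have := hy i
      positivity
    refine (sum_biUnion_le_of_nonneg _ _ _ hnn).trans ?_
    refine le_trans (Finset.sum_le_sum ?_) (sum_half N)
    intro j _
    have hY : ∑ i ∈ Ij j, y i ≤ 2 * (k j : ℝ) := by
      have h1 : ∑ i ∈ Ij j, y i ≤ ∑ i ∈ Ij j, (2:ℝ) ^ (j + 1) * (w i * y i) := by
        apply Finset.sum_le_sum
        intro i hi
        rw [Finset.mem_filter] at hi
        have h2 := (hc i hi.1).1
        rw [hi.2] at h2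
        have h3 : 1 < (2:ℝ) ^ (j + 1) * w i := by
          have h4 : (2:ℝ) ^ (j + 1) * ((1:ℝ) / 2) ^ (j + 1) = 1 := by
            rw [← mul_pow]; norm_num
          rw [← h4]
          exact mul_lt_mul_of_pos_left h2 (by positivity)
        have h5 := hy i
        nlinarith
      rw [← Finset.mul_sum] at h1
      have h6 : (2:ℝ) ^ (j + 1) * μ j ≤ 2 * ((2:ℝ) ^ j * a j) := by
        have : μ j ≤ a j := by
          simp only [ha]
          have : (0:ℝ) ≤ ((j : ℝ) + 1) / 2 ^ j / 16 := by positivity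
          linarith
        have h7 : (2:ℝ) ^ (j + 1) * μ j = 2 * ((2:ℝ) ^ j * μ j) := by ring
        rw [h7]
        have : (2:ℝ) ^ j * μ j ≤ (2:ℝ) ^ j * a j := mul_le_mul_of_nonneg_left this (by positivity)
        linarith
      have := hk1 j
      linarith
    have hcost := powersetCard_cost (Ij j) (fun i => y i / 786432) (fun i _ => by have := hy i; positivity) (k j)
      393216 (by norm_num)
    refine hcost.trans ?_
    have hexp : Real.exp (393216 * ∑ i ∈ Ij j, y i / 786432) ≤ Real.exp 1 ^ (k j) := by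
      rw [← Real.exp_nat_mul, mul_one]
      apply Real.exp_le_exp.mpr
      rw [← Finset.sum_div]
      linarith
    have he3 : Real.exp 1 ^ (k j) ≤ 3 ^ (k j) := by
      apply pow_le_pow_left₀ (Real.exp_pos 1).le
      have := Real.exp_one_lt_d9
      linarith
    have h8 : ((1:ℝ) / 393216) ^ (k j) * Real.exp (393216 * ∑ i ∈ Ij j, y i / 786432) ≤ ((1:ℝ) / 393216) ^ (k j) * 3 ^ (k j) :=
      mul_le_mul_of_nonneg_left (hexp.trans he3) (by positivity)
    refine h8.trans ?_
    rw [← mul_pow]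
    have h9 : ((1:ℝ) / 393216 * 3) = (1 / 2) ^ 17 := by norm_num
    rw [h9, ← pow_mul]
    apply pow_le_pow_of_le_one (by norm_num) (by norm_num)
    have := hk16 j
    omega

end Vale.Agent.Lib.P034
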