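import Mathlib
import Vale.Agent.Lib.P034.Defs
import Vale.Agent.Lib.P034.Linear
open Finset

namespace Vale.Agent.Lib.P034

variable {X : Type*} [Fintype X] [DecidableEq X]

theorem tail_bound (C : Finset (Finset X)) (b : ℝ) (hb : 1 ≤ b)
    (hgrowth : ∀ S ∈ C, S.Nonempty → ∀ r : ℕ,
      ((C.filter (fun R => S ⊆ R ∧ R.card = r)).card : ℝ) ≤ b ^ r)
    (p : ℝ) (hp0 : 0 ≤ p) (hp1 : p ≤ 1) (S : Finset X) (hS : S ∈ C) (hne : S.Nonempty)
    (C' : Finset (Finset X)) (hC' : C' ⊆ C) :
    ∑ R ∈ C'.filter (fun R => S ⊆ R), (p / (4 * b)) ^ R.card ≤ p ^ S.card / 3 := by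
  have hb0 : 0 < b := by linarith
  have hq0 : 0 ≤ p / (4 * b) := by positivity
  have hmaps : ∀ R ∈ C'.filter (fun R => S ⊆ R), R.card ∈ Finset.Ico S.card (Fintype.card X + 1) := by
    intro R hR
    rw [Finset.mem_filter] at hR
    rw [Finset.mem_Ico]
    exact ⟨Finset.card_le_card hR.2, Nat.lt_succ_of_le (Finset.card_le_univ R)⟩
  rw [← Finset.sum_fiberwise_of_maps_to hmaps]
  have h1 : ∀ r ∈ Finset.Ico S.card (Fintype.card X + 1),
      ∑ R ∈ (C'.filter (fun R => S ⊆ R)).filter (fun R => R.card = r), (p / (4 * b)) ^ R.card ≤ (p / 4) ^ r := by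
    intro r _
    have h2 : ∑ R ∈ (C'.filter (fun R => S ⊆ R)).filter (fun R => R.card = r), (p / (4 * b)) ^ R.card
        = ((C'.filter (fun R => S ⊆ R)).filter (fun R => R.card = r)).card * (p / (4 * b)) ^ r := by
      rw [← nsmul_eq_mul, ← Finset.sum_const]
      apply Finset.sum_congr rfl
      intro R hR
      rw [(Finset.mem_filter.mp hR).2]
    rw [h2]
    have h3 : (((C'.filter (fun R => S ⊆ R)).filter (fun R => R.card = r)).card : ℝ) ≤ b ^ r := by
      refine le_trans ?_ (hgrowth S hS hne r)
      have : ((C'.filter (fun R => S ⊆ R)).filter (fun R => R.card = r)) ⊆ C.filter (fun R => S ⊆ R ∧ R.card = r) := by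
        intro R hR
        simp only [Finset.mem_filter] at hR ⊢
        exact ⟨hC' hR.1.1, hR.1.2, hR.2⟩
      exact_mod_cast Finset.card_le_card this
    have h4 : b ^ r * (p / (4 * b)) ^ r = (p / 4) ^ r := by
      rw [← mul_pow]
      congr 1
      field_simp
    rw [← h4]
    exact mul_le_mul_of_nonneg_right h3 (by positivity)
  refine (Finset.sum_le_sum h1).trans ?_
  have hx0 : 0 ≤ p / 4 := by positivity
  have hx1 : p / 4 < 1 := by linarith
  refine (geom_sum_Ico_le_of_lt_one hx0 hx1).trans ?_
  have hs : 1 ≤ S.card := Finset.card_pos.mpr hne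
  have h5 : (p / 4) ^ S.card ≤ p ^ S.card / 4 := by
    rw [div_pow]
    apply div_le_div_of_nonneg_left (by positivity) (by norm_num)
    calc (4:ℝ) = 4 ^ 1 := by norm_num
      _ ≤ 4 ^ S.card := pow_le_pow_right₀ (by norm_num) hs
  have h6 : (3:ℝ) / 4 ≤ 1 - p / 4 := by linarith
  have h7 : 0 ≤ p ^ S.card := by positivity
  rw [div_le_iff₀ (by linarith)]
  nlinarith

theorem core (F C : Finset (Finset X))
    (hunion : ∀ R ∈ C, ∀ R' ∈ C, ¬ Disjoint R R' → R ∪ R' ∈ C)
    (p q : ℝ) (hp0 : 0 ≤ p) (hq0 : 0 ≤ q)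
    (htail : ∀ S ∈ C, S.Nonempty → ∑ R ∈ C.filter (fun R => S ⊆ R), q ^ R.card ≤ p ^ S.card / 3)
    (g : Finset X → ℝ) (hg : IsFracCover g F)
    (hsupp : ∀ S, g S ≠ 0 → S = ∅ ∨ S ∈ C) (hcost : fracCost g p ≤ 1 / 2) :
    IsSmall F (q / 786432) := by
  classical
  obtain ⟨hg01, hgF⟩ := hg
  have hg0 : ∀ S, 0 ≤ g S := fun S => (hg01 S).1
  set C' := C.filter (fun R => R.Nonempty) with hC'
  have hC'C : C' ⊆ C := Finset.filter_subset _ _
  set Λ : Finset X → ℝ := fun R => ∑ S ∈ C'.filter (fun S => S ⊆ R), g S with hΛ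
  have hΛ0 : ∀ R, 0 ≤ Λ R := fun R => Finset.sum_nonneg (fun S _ => hg0 S)
  -- Step 2
  have hstep2 : ∑ R ∈ C', Λ R * q ^ R.card ≤ 1 / 6 := by
    have h1 : ∑ R ∈ C', Λ R * q ^ R.card = ∑ S ∈ C', g S * ∑ R ∈ C'.filter (fun R => S ⊆ R), q ^ R.card := by
      have e1 : ∀ R ∈ C', Λ R * q ^ R.card = ∑ S ∈ C', if S ⊆ R then g S * q ^ R.card else 0 := by
        intro R _
        simp only [hΛ]
        rw [Finset.sum_mul, Finset.sum_filter]
      have e2 : ∀ S ∈ C', g S * ∑ R ∈ C'.filter (fun R => S ⊆ R), q ^ R.card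
          = ∑ R ∈ C', if S ⊆ R then g S * q ^ R.card else 0 := by
        intro S _
        rw [Finset.mul_sum, Finset.sum_filter]
      rw [Finset.sum_congr rfl e1, Finset.sum_congr rfl e2, Finset.sum_comm]
    rw [h1]
    have h2 : ∑ S ∈ C', g S * ∑ R ∈ C'.filter (fun R => S ⊆ R), q ^ R.card ≤ ∑ S ∈ C', g S * (p ^ S.card / 3) := by
      apply Finset.sum_le_sum
      intro S hS
      apply mul_le_mul_of_nonneg_left _ (hg0 S)
      rw [hC', Finset.mem_filter] at hS
      refine le_trans ?_ (htail S hS.1 hS.2)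
      apply Finset.sum_le_sum_of_subset_of_nonneg (Finset.filter_subset_filter _ hC'C)
      intro R _ _
      positivity
    refine h2.trans ?_
    have h3 : ∑ S ∈ C', g S * (p ^ S.card / 3) = (∑ S ∈ C', g S * p ^ S.card) / 3 := by
      rw [Finset.sum_div]
      apply Finset.sum_congr rfl
      intro S _
      ring
    rw [h3]
    have h4 : ∑ S ∈ C', g S * p ^ S.card ≤ fracCost g p := by
      apply Finset.sum_le_sum_of_subset_of_nonneg (Finset.subset_univ _)
      intro S _ _
      exact mul_nonneg (hg0 S) (by positivity)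
    linarith
  -- Step 3
  have hstep3 : g ∅ ≤ 1 / 2 := by
    have h1 : g ∅ * p ^ (∅ : Finset X).card ≤ fracCost g p :=
      Finset.single_le_sum (f := fun S : Finset X => g S * p ^ S.card)
        (fun S _ => mul_nonneg (hg0 S) (by positivity)) (Finset.mem_univ ∅)
    simp at h1
    linarith
  set w : Finset X → ℝ := fun R => min (Λ R) 1 with hw
  set I := C'.filter (fun R => 0 < Λ R) with hI
  obtain ⟨BB, hBBI, hBBcov, hBBcost⟩ := Vale.Agent.Lib.P034.linear_case I w (fun R => q ^ R.card)
    (fun R hR => lt_min (Finset.mem_filter.mp hR).2 one_pos) (fun R _ => min_le_right _ _)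
    (fun R => by positivity)
    (by
      refine le_trans ?_ hstep2
      refine le_trans (Finset.sum_le_sum (g := fun R => Λ R * q ^ R.card) ?_) ?_
      · intro R _
        exact mul_le_mul_of_nonneg_right (min_le_left _ _) (by positivity)
      · apply Finset.sum_le_sum_of_subset_of_nonneg (Finset.filter_subset _ _)
        intro R _ _
        exact mul_nonneg (hΛ0 R) (by positivity))
  refine ⟨(BB.filter (fun B : Finset (Finset X) => (B : Set (Finset X)).PairwiseDisjoint id)).image (fun B : Finset (Finset X) => B.biUnion id), ?_, ?_⟩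
  · -- covering
    intro H hH
    set D := C'.filter (fun R => R ⊆ H) with hD
    set AH := D.filter (fun R => Maximal (fun R => R ∈ D) R) with hAH
    have hAHdisj : (AH : Set (Finset X)).PairwiseDisjoint id := by
      intro R hR R' hR' hne
      by_contra hnd
      have hnd : ¬ Disjoint R R' := hnd
      have hR1 := Finset.mem_filter.mp (Finset.mem_coe.mp hR)
      have hR1' := Finset.mem_filter.mp (Finset.mem_coe.mp hR')
      have hRD := Finset.mem_filter.mp hR1.1
      have hRD' := Finset.mem_filter.mp hR1'.1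
      have hRC := Finset.mem_filter.mp hRD.1
      have hRC' := Finset.mem_filter.mp hRD'.1
      have hU : R ∪ R' ∈ D := by
        rw [hD, Finset.mem_filter, hC', Finset.mem_filter]
        exact ⟨⟨hunion R hRC.1 R' hRC'.1 hnd, hRC.2.mono Finset.subset_union_left⟩,
          Finset.union_subset hRD.2 hRD'.2⟩
      have h1 : R ∪ R' ≤ R := hR1.2.2 hU Finset.subset_union_left
      have h2 : R ∪ R' ≤ R' := hR1'.2.2 hU Finset.subset_union_right
      apply hne
      apply Finset.Subset.antisymm
      · exact Finset.subset_union_left.trans h2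
      · exact Finset.subset_union_right.trans h1
    have hsumD : 1 / 2 ≤ ∑ S ∈ D, g S := by
      have h1 := hgF H hH
      have h2 : ∑ S ∈ H.powerset, g S ≤ g ∅ + ∑ S ∈ D, g S := by
        rw [← Finset.sum_filter_ne_zero]
        have hsub : H.powerset.filter (fun S => g S ≠ 0) ⊆ insert ∅ D := by
          intro S hS
          rw [Finset.mem_filter, Finset.mem_powerset] at hS
          rw [Finset.mem_insert]
          by_cases hSe : S = ∅
          · exact Or.inl hSe
          · right
            rcases hsupp S hS.2 with h | h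
            · exact absurd h hSe
            · rw [hD, Finset.mem_filter, hC', Finset.mem_filter]
              exact ⟨⟨h, Finset.nonempty_iff_ne_empty.mpr hSe⟩, hS.1⟩
        refine (Finset.sum_le_sum_of_subset_of_nonneg hsub (fun S _ _ => hg0 S)).trans ?_
        have hnot : (∅ : Finset X) ∉ D := by
          intro h
          rw [hD, Finset.mem_filter, hC', Finset.mem_filter] at h
          exact Finset.not_nonempty_empty h.1.2
        rw [Finset.sum_insert hnot]
      linarith
    have hsumAH : 1 / 2 ≤ ∑ R ∈ AH, Λ R := by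
      refine hsumD.trans ?_
      have hsub : D ⊆ AH.biUnion (fun R => C'.filter (fun S => S ⊆ R)) := by
        intro S hS
        obtain ⟨R, hSR, hR⟩ := Finset.exists_le_maximal D hS
        rw [Finset.mem_biUnion]
        refine ⟨R, Finset.mem_filter.mpr ⟨hR.1, hR⟩, ?_⟩
        rw [Finset.mem_filter]
        exact ⟨(Finset.mem_filter.mp hS).1, hSR⟩
      refine (Finset.sum_le_sum_of_subset_of_nonneg hsub (fun S _ _ => hg0 S)).trans ?_
      exact Vale.Agent.Lib.P034.sum_biUnion_le_of_nonneg _ _ _ hg0
    set A := AH.filter (fun R => 0 < Λ R) with hA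
    have hAI : A ⊆ I := by
      intro R hR
      rw [hA, Finset.mem_filter] at hR
      rw [hI, Finset.mem_filter]
      exact ⟨(Finset.mem_filter.mp (Finset.mem_filter.mp hR.1).1).1, hR.2⟩
    have hAw : 1 / 2 ≤ ∑ R ∈ A, w R := by
      have hw0 : ∀ R, 0 ≤ w R := fun R => le_min (hΛ0 R) zero_le_one
      by_cases hbig : ∃ R ∈ AH, 1 ≤ Λ R
      · obtain ⟨R, hR, hR1⟩ := hbig
        have hRA : R ∈ A := Finset.mem_filter.mpr ⟨hR, by linarith⟩
        have h1 : w R ≤ ∑ R ∈ A, w R := Finset.single_le_sum (fun R _ => hw0 R) hRA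
        have h2 : w R = 1 := min_eq_right hR1
        linarith
      · push Not at hbig
        have h1 : ∑ R ∈ A, w R = ∑ R ∈ AH, Λ R := by
          rw [hA, Finset.sum_filter]
          apply Finset.sum_congr rfl
          intro R hR
          split_ifs with h
          · exact min_eq_left (hbig R hR).le
          · have := hΛ0 R
            linarith
        rw [h1]
        exact hsumAH
    obtain ⟨B, hB, hBA⟩ := hBBcov A hAI hAw
    have hBAH : B ⊆ AH := hBA.trans (Finset.filter_subset _ _)
    refine ⟨B.biUnion id, ?_, ?_⟩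
    · rw [Finset.mem_image]
      refine ⟨B, ?_, rfl⟩
      rw [Finset.mem_filter]
      exact ⟨hB, hAHdisj.subset (by exact_mod_cast hBAH)⟩
    · rw [Finset.biUnion_subset]
      intro R hR
      exact (Finset.mem_filter.mp (Finset.mem_filter.mp (hBAH hR)).1).2
  · -- cost
    unfold cost
    have hpos : 0 ≤ q / 786432 := by positivity
    refine (Finset.sum_image_le_of_nonneg (fun T _ => by positivity)).trans ?_
    refine le_trans ?_ hBBcost
    refine le_trans (Finset.sum_le_sum (g := fun B => ∏ R ∈ B, (q ^ R.card / 786432)) ?_) ?_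
    · intro B hB
      rw [Finset.mem_filter] at hB
      rw [Finset.card_biUnion hB.2, ← Finset.prod_pow_eq_pow_sum]
      apply Finset.prod_le_prod
      · intro R _
        positivity
      · intro R hR
        have hRne : R.Nonempty := by
          have := hBBI B hB.1 hR
          rw [hI, Finset.mem_filter, hC', Finset.mem_filter] at this
          exact this.1.2
        have hcard : 1 ≤ R.card := Finset.card_pos.mpr hRne
        simp only [id]
        rw [div_pow]
        apply div_le_div_of_nonneg_left (by positivity) (by norm_num)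
        calc (786432:ℝ) = 786432 ^ 1 := by norm_num
          _ ≤ 786432 ^ R.card := pow_le_pow_right₀ (by norm_num) hcard
    · apply Finset.sum_le_sum_of_subset_of_nonneg (Finset.filter_subset _ _)
      intro B _ _
      apply Finset.prod_nonneg
      intro R _
      positivity

/-- Count version: at most `b ^ r` members of size `r` above any nonempty member. -/
theorem union_closed_support (F C : Finset (Finset X)) (b : ℝ) (hb : 1 ≤ b)
    (hunion : ∀ R ∈ C, ∀ R' ∈ C, ¬ Disjoint R R' → R ∪ R' ∈ C)
    (hgrowth : ∀ S ∈ C, S.Nonempty → ∀ r : ℕ,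
      ((C.filter (fun R => S ⊆ R ∧ R.card = r)).card : ℝ) ≤ b ^ r)
    (p : ℝ) (hp0 : 0 ≤ p) (hp1 : p ≤ 1) (g : Finset X → ℝ) (hg : IsFracCover g F)
    (hsupp : ∀ S, g S ≠ 0 → S = ∅ ∨ S ∈ C) (hcost : fracCost g p ≤ 1 / 2) :
    IsSmall F (p / (3145728 * b)) := by
  have hb0 : 0 < b := by linarith
  have h := core F C hunion p (p / (4 * b)) hp0 (by positivity)
    (fun S hS hne => tail_bound C b hb hgrowth p hp0 hp1 S hS hne C (Finset.Subset.refl _))
    g hg hsupp hcost
  have e1 : p / (3145728 * b) = p / (4 * b) / 786432 := by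
    field_simp; ring
  rw [e1]
  exact h

/-- Laminar support. -/
theorem laminar_support (F : Finset (Finset X))
    (p : ℝ) (hp0 : 0 ≤ p) (hp1 : p ≤ 1) (g : Finset X → ℝ) (hg : IsFracCover g F)
    (hlam : ∀ S T, g S ≠ 0 → g T ≠ 0 → S ⊆ T ∨ T ⊆ S ∨ Disjoint S T)
    (hcost : fracCost g p ≤ 1 / 2) :
    IsSmall F (p / 3145728) := by
  classical
  have h := union_closed_support F (Finset.univ.filter (fun S => g S ≠ 0)) 1 le_rfl
    (by
      intro R hR R' hR' hnd
      rw [Finset.mem_filter] at hR hR' ⊢
      rcases hlam R R' hR.2 hR'.2 with h | h | h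
      · rw [Finset.union_eq_right.mpr h]; exact hR'
      · rw [Finset.union_eq_left.mpr h]; exact hR
      · exact absurd h hnd)
    (by
      intro S hS hne r
      rw [one_pow]
      have : (Finset.filter (fun R => S ⊆ R ∧ R.card = r) (Finset.univ.filter (fun S => g S ≠ 0))).card ≤ 1 := by
        rw [Finset.card_le_one]
        intro R hR R' hR'
        simp only [Finset.mem_filter, Finset.mem_univ, true_and] at hR hR'
        rcases hlam R R' hR.1 hR'.1 with h | h | h
        · exact Finset.eq_of_subset_of_card_le h (by omega)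
        · exact (Finset.eq_of_subset_of_card_le h (by omega)).symm
        · exfalso
          obtain ⟨x, hx⟩ := hne
          exact Finset.disjoint_left.mp h (hR.2.1 hx) (hR'.2.1 hx)
      exact_mod_cast this)
    p hp0 hp1 g hg
    (by
      intro S hS
      right
      exact Finset.mem_filter.mpr ⟨Finset.mem_univ _, hS⟩)
    hcost
  simpa using h

end Vale.Agent.Lib.P034
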