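import Mathlib
import Vale.Agent.Lib.P034.Core
open Finset

namespace Vale.Agent.Lib.P034

variable {X : Type*} [Fintype X] [DecidableEq X]

omit [Fintype X] [DecidableEq X] in
theorem exists_boundary_edge (Γ : SimpleGraph X) (R S : Finset X)
    (hR : (Γ.induce (R : Set X)).Connected) (hSR : S ⊆ R) (hne : S.Nonempty) (hneq : S ≠ R) :
    ∃ a ∈ S, ∃ b ∈ R, b ∉ S ∧ Γ.Adj a b := by
  obtain ⟨x, hx⟩ := hne
  obtain ⟨y, hyR, hyS⟩ := Finset.exists_of_ssubset (Finset.ssubset_iff_subset_ne.mpr ⟨hSR, hneq⟩)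
  obtain ⟨w⟩ := hR.preconnected ⟨x, Finset.mem_coe.mpr (hSR hx)⟩ ⟨y, Finset.mem_coe.mpr hyR⟩
  obtain ⟨d, _, hd1, hd2⟩ := w.exists_boundary_dart {v | v.1 ∈ S} hx hyS
  refine ⟨d.fst.1, hd1, d.snd.1, Finset.mem_coe.mp d.snd.2, hd2, ?_⟩
  have := d.adj
  simpa using this

/-- outer vertex boundary -/
def bdry (Γ : SimpleGraph X) [DecidableRel Γ.Adj] (S : Finset X) : Finset X :=
  (S.biUnion (fun v => Γ.neighborFinset v)) \ S

theorem card_bdry_le (Γ : SimpleGraph X) [DecidableRel Γ.Adj] (Δ : ℕ) (hdeg : ∀ v, Γ.degree v ≤ Δ)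
    (S : Finset X) : (bdry Γ S).card ≤ Δ * S.card := by
  unfold bdry
  refine (Finset.card_le_card Finset.sdiff_subset).trans ?_
  refine Finset.card_biUnion_le.trans ?_
  rw [mul_comm]
  apply Finset.sum_le_card_nsmul
  intro v _
  rw [SimpleGraph.card_neighborFinset_eq_degree]
  exact hdeg v

theorem conn_tail_base (Γ : SimpleGraph X) [DecidableRel Γ.Adj]
    (Conn : Finset (Finset X)) (hConn : ∀ R ∈ Conn, (Γ.induce (R : Set X)).Connected)
    (q β : ℝ) (hq0 : 0 ≤ q) (S Z : Finset X) (hne : S.Nonempty) (hempty : bdry Γ S \ Z = ∅) :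
    ∑ R ∈ Conn.filter (fun R => S ⊆ R ∧ Disjoint R Z), q ^ R.card
        ≤ q ^ S.card * β ^ (bdry Γ S \ Z).card := by
  rw [hempty, Finset.card_empty, pow_zero, mul_one]
  have hsub : Conn.filter (fun R => S ⊆ R ∧ Disjoint R Z) ⊆ {S} := by
    intro R hR
    rw [Finset.mem_filter] at hR
    rw [Finset.mem_singleton]
    by_contra hneq
    obtain ⟨a, ha, b, hbR, hbS, hab⟩ := exists_boundary_edge Γ R S (hConn R hR.1) hR.2.1 hne (Ne.symm hneq)
    have hb : b ∈ bdry Γ S \ Z := by
      simp only [bdry, Finset.mem_sdiff, Finset.mem_biUnion]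
      refine ⟨⟨⟨a, ha, ?_⟩, hbS⟩, Finset.disjoint_left.mp hR.2.2 hbR⟩
      rw [SimpleGraph.mem_neighborFinset]
      exact hab
    rw [hempty] at hb
    exact Finset.notMem_empty b hb
  refine (Finset.sum_le_sum_of_subset_of_nonneg hsub (fun R _ _ => by positivity)).trans ?_
  rw [Finset.sum_singleton]

theorem conn_tail (Γ : SimpleGraph X) [DecidableRel Γ.Adj] (Δ : ℕ) (hdeg : ∀ v, Γ.degree v ≤ Δ)
    (Conn : Finset (Finset X)) (hConn : ∀ R ∈ Conn, (Γ.induce (R : Set X)).Connected)
    (q β : ℝ) (hq0 : 0 ≤ q) (hβ : 1 ≤ β) (hqβ : q * β ^ Δ + 1 ≤ β) :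
    ∀ (n : ℕ) (S Z : Finset X), S.Nonempty → (Finset.univ \ (S ∪ Z)).card ≤ n →
      ∑ R ∈ Conn.filter (fun R => S ⊆ R ∧ Disjoint R Z), q ^ R.card
        ≤ q ^ S.card * β ^ (bdry Γ S \ Z).card := by
  have hβ0 : 0 ≤ β := by linarith
  intro n
  induction n with
  | zero =>
    intro S Z hne hcard
    have hempty : bdry Γ S \ Z = ∅ := by
      rw [Finset.eq_empty_iff_forall_notMem]
      intro u hu
      have hu' : u ∈ Finset.univ \ (S ∪ Z) := by
        simp only [bdry, Finset.mem_sdiff, Finset.mem_union, Finset.mem_univ, true_and] at hu ⊢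
        tauto
      have : 0 < (Finset.univ \ (S ∪ Z)).card := Finset.card_pos.mpr ⟨u, hu'⟩
      omega
    exact conn_tail_base Γ Conn hConn q β hq0 S Z hne hempty
  | succ n ih =>
    intro S Z hne hcard
    by_cases hempty : bdry Γ S \ Z = ∅
    · exact conn_tail_base Γ Conn hConn q β hq0 S Z hne hempty
    · obtain ⟨u, hu⟩ := Finset.nonempty_iff_ne_empty.mpr hempty
      have huS : u ∉ S := by
        simp only [bdry, Finset.mem_sdiff] at hu
        exact hu.1.2
      have huZ : u ∉ Z := (Finset.mem_sdiff.mp hu).2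
      have hsplit : ∑ R ∈ Conn.filter (fun R => S ⊆ R ∧ Disjoint R Z), q ^ R.card
          = ∑ R ∈ Conn.filter (fun R => insert u S ⊆ R ∧ Disjoint R Z), q ^ R.card
            + ∑ R ∈ Conn.filter (fun R => S ⊆ R ∧ Disjoint R (insert u Z)), q ^ R.card := by
        rw [← Finset.sum_filter_add_sum_filter_not (Conn.filter (fun R => S ⊆ R ∧ Disjoint R Z)) (fun R => u ∈ R)]
        rw [Finset.filter_filter, Finset.filter_filter]
        congr 1
        · apply Finset.sum_congr _ (fun _ _ => rfl)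
          apply Finset.filter_congr
          intro R _
          rw [Finset.insert_subset_iff]
          tauto
        · apply Finset.sum_congr _ (fun _ _ => rfl)
          apply Finset.filter_congr
          intro R _
          rw [Finset.disjoint_insert_right]
          tauto
      have huU : u ∈ Finset.univ \ (S ∪ Z) := by
        simp only [Finset.mem_sdiff, Finset.mem_union, Finset.mem_univ, true_and]
        tauto
      have hc1 : (Finset.univ \ (insert u S ∪ Z)).card ≤ n := by
        have : Finset.univ \ (insert u S ∪ Z) ⊆ (Finset.univ \ (S ∪ Z)).erase u := by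
          intro x hx
          simp only [Finset.mem_sdiff, Finset.mem_union, Finset.mem_univ, true_and, Finset.mem_insert,
            Finset.mem_erase] at hx ⊢
          tauto
        have h2 := Finset.card_le_card this
        rw [Finset.card_erase_of_mem huU] at h2
        omega
      have hc2 : (Finset.univ \ (S ∪ insert u Z)).card ≤ n := by
        have : Finset.univ \ (S ∪ insert u Z) ⊆ (Finset.univ \ (S ∪ Z)).erase u := by
          intro x hx
          simp only [Finset.mem_sdiff, Finset.mem_union, Finset.mem_univ, true_and, Finset.mem_insert,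
            Finset.mem_erase] at hx ⊢
          tauto
        have h2 := Finset.card_le_card this
        rw [Finset.card_erase_of_mem huU] at h2
        omega
      have ih1 := ih (insert u S) Z (Finset.insert_nonempty u S) hc1
      have ih2 := ih S (insert u Z) hne hc2
      obtain ⟨f', hf'⟩ : ∃ f', (bdry Γ S \ Z).card = f' + 1 :=
        ⟨(bdry Γ S \ Z).card - 1, by have := Finset.card_pos.mpr ⟨u, hu⟩; omega⟩
      have hb1 : (bdry Γ (insert u S) \ Z).card ≤ f' + Δ := by
        have hsub : bdry Γ (insert u S) \ Z ⊆ (bdry Γ S \ Z).erase u ∪ Γ.neighborFinset u := by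
          intro x hx
          simp only [bdry, Finset.mem_sdiff, Finset.mem_biUnion, Finset.mem_insert, Finset.mem_union,
            Finset.mem_erase] at hx ⊢
          obtain ⟨⟨⟨v, hv, hxv⟩, hx2⟩, hx3⟩ := hx
          rcases hv with rfl | hv
          · right; exact hxv
          · left
            exact ⟨fun h => hx2 (Or.inl h), ⟨⟨v, hv, hxv⟩, fun h => hx2 (Or.inr h)⟩, hx3⟩
        refine (Finset.card_le_card hsub).trans ((Finset.card_union_le _ _).trans ?_)
        rw [Finset.card_erase_of_mem hu, SimpleGraph.card_neighborFinset_eq_degree]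
        have := hdeg u
        omega
      have hb2 : (bdry Γ S \ insert u Z).card = f' := by
        have : bdry Γ S \ insert u Z = (bdry Γ S \ Z).erase u := by
          ext x
          simp only [Finset.mem_sdiff, Finset.mem_insert, Finset.mem_erase]
          tauto
        rw [this, Finset.card_erase_of_mem hu]
        omega
      rw [hsplit, hf']
      rw [hb2] at ih2
      rw [Finset.card_insert_of_notMem huS] at ih1
      have h3 : q ^ (S.card + 1) * β ^ (bdry Γ (insert u S) \ Z).card ≤ q ^ (S.card + 1) * β ^ (f' + Δ) :=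
        mul_le_mul_of_nonneg_left (pow_le_pow_right₀ hβ hb1) (by positivity)
      have h4 : q ^ (S.card + 1) * β ^ (f' + Δ) + q ^ S.card * β ^ f' = q ^ S.card * β ^ f' * (q * β ^ Δ + 1) := by
        ring
      have h5 : q ^ S.card * β ^ f' * (q * β ^ Δ + 1) ≤ q ^ S.card * β ^ f' * β :=
        mul_le_mul_of_nonneg_left hqβ (by positivity)
      have h6 : q ^ S.card * β ^ (f' + 1) = q ^ S.card * β ^ f' * β := by ring
      linarith

theorem one_add_inv_pow_le (Δ : ℕ) (hΔ : 1 ≤ Δ) : (1 + 1 / (Δ : ℝ)) ^ Δ ≤ 3 := by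
  have hΔ0 : (0 : ℝ) < Δ := by exact_mod_cast hΔ
  have h1 : 1 + 1 / (Δ : ℝ) ≤ Real.exp (1 / (Δ : ℝ)) := by
    have := Real.add_one_le_exp (1 / (Δ : ℝ))
    linarith
  have h2 : (1 + 1 / (Δ : ℝ)) ^ Δ ≤ Real.exp (1 / (Δ : ℝ)) ^ Δ :=
    pow_le_pow_left₀ (by positivity) h1 Δ
  have h3 : Real.exp (1 / (Δ : ℝ)) ^ Δ = Real.exp 1 := by
    rw [← Real.exp_nat_mul]
    congr 1
    field_simp
  have := Real.exp_one_lt_d9
  linarith

/-- Support on connected vertex sets of a graph of maximum degree at most `Δ`. -/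
theorem connected_support (Γ : SimpleGraph X) [DecidableRel Γ.Adj] (Δ : ℕ) (hΔ : 1 ≤ Δ)
    (hdeg : ∀ v, Γ.degree v ≤ Δ) (F : Finset (Finset X))
    (p : ℝ) (hp0 : 0 ≤ p) (hp1 : p ≤ 1) (g : Finset X → ℝ) (hg : IsFracCover g F)
    (hsupp : ∀ S, g S ≠ 0 → S = ∅ ∨ (Γ.induce (S : Set X)).Connected)
    (hcost : fracCost g p ≤ 1 / 2) :
    IsSmall F (p / (7077888 * Δ)) := by
  classical
  have hΔ0 : (0 : ℝ) < Δ := by exact_mod_cast hΔ
  have hΔ1 : (1 : ℝ) ≤ Δ := by exact_mod_cast hΔ
  set Conn : Finset (Finset X) := Finset.univ.filter (fun R => (Γ.induce (R : Set X)).Connected) with hConnDef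
  have hConn : ∀ R ∈ Conn, (Γ.induce (R : Set X)).Connected := fun R hR => (Finset.mem_filter.mp hR).2
  set q : ℝ := p / (9 * Δ) with hq
  have hq0 : 0 ≤ q := by positivity
  set β : ℝ := 1 + 1 / (Δ : ℝ) with hβdef
  have hβ : 1 ≤ β := by
    have : 0 ≤ 1 / (Δ : ℝ) := by positivity
    linarith
  have hβ3 : β ^ Δ ≤ 3 := one_add_inv_pow_le Δ hΔ
  have hq3 : 3 * q ≤ 1 / (Δ : ℝ) := by
    rw [hq]
    rw [le_div_iff₀ hΔ0]
    have : 3 * (p / (9 * (Δ : ℝ))) * Δ = p / 3 := by field_simp; ring
    rw [this]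
    linarith
  have hqβ : q * β ^ Δ + 1 ≤ β := by
    have : q * β ^ Δ ≤ q * 3 := mul_le_mul_of_nonneg_left hβ3 hq0
    linarith
  have h := core F Conn
    (by
      intro R hR R' hR' hnd
      rw [hConnDef, Finset.mem_filter]
      refine ⟨Finset.mem_univ _, ?_⟩
      rw [Finset.coe_union]
      apply SimpleGraph.induce_union_connected (hConn R hR).preconnected (hConn R' hR').preconnected
      rw [Finset.not_disjoint_iff] at hnd
      obtain ⟨x, hx, hx'⟩ := hnd
      exact ⟨x, hx, hx'⟩)
    p q hp0 hq0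
    (by
      intro S _ hne
      have h1 := conn_tail Γ Δ hdeg Conn hConn q β hq0 hβ hqβ _ S ∅ hne le_rfl
      have h2 : Conn.filter (fun R => S ⊆ R ∧ Disjoint R ∅) = Conn.filter (fun R => S ⊆ R) := by
        apply Finset.filter_congr
        intro R _
        simp
      rw [h2, Finset.sdiff_empty] at h1
      refine h1.trans ?_
      have h3 : β ^ (bdry Γ S).card ≤ β ^ (Δ * S.card) := pow_le_pow_right₀ hβ (card_bdry_le Γ Δ hdeg S)
      have h4 : β ^ (Δ * S.card) ≤ 3 ^ S.card := by
        rw [pow_mul]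
        exact pow_le_pow_left₀ (by positivity) hβ3 _
      have h5 : q ^ S.card * β ^ (bdry Γ S).card ≤ q ^ S.card * 3 ^ S.card :=
        mul_le_mul_of_nonneg_left (h3.trans h4) (by positivity)
      refine h5.trans ?_
      rw [← mul_pow]
      have h6 : q * 3 ≤ p / 3 := by
        rw [hq]
        rw [div_mul_eq_mul_div, div_le_div_iff₀ (by positivity) (by norm_num)]
        nlinarith
      have hs : 1 ≤ S.card := Finset.card_pos.mpr hne
      have h7 : (q * 3) ^ S.card ≤ (p / 3) ^ S.card := pow_le_pow_left₀ (by positivity) h6 _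
      refine h7.trans ?_
      rw [div_pow]
      apply div_le_div_of_nonneg_left (by positivity) (by norm_num)
      calc (3:ℝ) = 3 ^ 1 := by norm_num
        _ ≤ 3 ^ S.card := pow_le_pow_right₀ (by norm_num) hs)
    g hg
    (by
      intro S hS
      rcases hsupp S hS with h | h
      · exact Or.inl h
      · right
        exact Finset.mem_filter.mpr ⟨Finset.mem_univ _, h⟩)
    hcost
  have e1 : p / (7077888 * (Δ : ℝ)) = q / 786432 := by
    rw [hq]; field_simp; ring
  rw [e1]
  exact h

end Vale.Agent.Lib.P034
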