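import Mathlib
import Vale.Agent.Lib.P034.Core
open Finset

namespace Vale.Agent.Lib.P034

variable {X : Type*} [Fintype X] [DecidableEq X]

omit [Fintype X] in
theorem IsCluster.union {E : Finset (Finset X)} {R R' : Finset X} (hR : IsCluster E R)
    (hR' : IsCluster E R') (hnd : ¬ Disjoint R R') : IsCluster E (R ∪ R') := by
  refine ⟨hR.1.mono Finset.subset_union_left, ?_⟩
  intro S hS hne hneq
  by_cases h1 : (S ∩ R).Nonempty ∧ S ∩ R ≠ R
  · obtain ⟨T, hT, hTR, hTS, hTS'⟩ := hR.2 (S ∩ R) Finset.inter_subset_right h1.1 h1.2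
    refine ⟨T, hT, hTR.trans Finset.subset_union_left, ?_, ?_⟩
    · intro hd
      exact hTS (hd.mono_right Finset.inter_subset_left)
    · intro hsub
      exact hTS' (Finset.subset_inter hsub hTR)
  by_cases h2 : (S ∩ R').Nonempty ∧ S ∩ R' ≠ R'
  · obtain ⟨T, hT, hTR, hTS, hTS'⟩ := hR'.2 (S ∩ R') Finset.inter_subset_right h2.1 h2.2
    refine ⟨T, hT, hTR.trans Finset.subset_union_right, ?_, ?_⟩
    · intro hd
      exact hTS (hd.mono_right Finset.inter_subset_left)
    · intro hsub
      exact hTS' (Finset.subset_inter hsub hTR)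
  exfalso
  rw [not_and_or, Finset.not_nonempty_iff_eq_empty, not_not] at h1 h2
  rw [Finset.not_disjoint_iff] at hnd
  obtain ⟨x, hx, hx'⟩ := hnd
  rcases h1 with h1 | h1 <;> rcases h2 with h2 | h2
  · obtain ⟨y, hy⟩ := hne
    rcases Finset.mem_union.mp (hS hy) with h | h
    · have : y ∈ S ∩ R := Finset.mem_inter.mpr ⟨hy, h⟩
      rw [h1] at this; exact Finset.notMem_empty _ this
    · have : y ∈ S ∩ R' := Finset.mem_inter.mpr ⟨hy, h⟩
      rw [h2] at this; exact Finset.notMem_empty _ this
  · have hxS : x ∈ S := by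
      have : x ∈ S ∩ R' := by rw [h2]; exact hx'
      exact (Finset.mem_inter.mp this).1
    have : x ∈ S ∩ R := Finset.mem_inter.mpr ⟨hxS, hx⟩
    rw [h1] at this; exact Finset.notMem_empty _ this
  · have hxS : x ∈ S := by
      have : x ∈ S ∩ R := by rw [h1]; exact hx
      exact (Finset.mem_inter.mp this).1
    have : x ∈ S ∩ R' := Finset.mem_inter.mpr ⟨hxS, hx'⟩
    rw [h2] at this; exact Finset.notMem_empty _ this
  · apply hneq
    apply Finset.Subset.antisymm hS
    apply Finset.union_subset
    · rw [← h1]; exact Finset.inter_subset_left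
    · rw [← h2]; exact Finset.inter_subset_left

omit [Fintype X] [DecidableEq X] in
theorem isCluster_of_mem {E : Finset (Finset X)} {R : Finset X} (hR : R ∈ E) (hne : R.Nonempty) :
    IsCluster E R := by
  refine ⟨hne, ?_⟩
  intro S hS hSne hneq
  refine ⟨R, hR, Finset.Subset.refl _, ?_, ?_⟩
  · intro hd
    obtain ⟨y, hy⟩ := hSne
    exact Finset.disjoint_left.mp hd (hS hy) hy
  · intro hsub
    exact hneq (Finset.Subset.antisymm hS hsub)

/-- hyperedges containing no forbidden hyperedge, meeting `S` and not inside `S`. -/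
def frontier {X : Type*} [DecidableEq X] (E : Finset (Finset X)) (S : Finset X) (Z : Finset (Finset X)) :
    Finset (Finset X) :=
  E.filter (fun U => (∀ T ∈ Z, ¬ T ⊆ U) ∧ ¬ Disjoint U S ∧ ¬ U ⊆ S)

/-- inclusion-minimal members of the frontier. -/
def minFrontier {X : Type*} [DecidableEq X] (E : Finset (Finset X)) (S : Finset X) (Z : Finset (Finset X)) :
    Finset (Finset X) :=
  (frontier E S Z).filter (fun U => ∀ V ∈ frontier E S Z, V ⊆ U → U ⊆ V)

omit [Fintype X] in
theorem minFrontier_antichain (E : Finset (Finset X)) (S : Finset X) (Z : Finset (Finset X)) :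
    IsAntichain (· ⊆ ·) (minFrontier E S Z : Set (Finset X)) := by
  intro U hU V hV hne hsub
  have hU' := Finset.mem_filter.mp (Finset.mem_coe.mp hU)
  have hV' := Finset.mem_filter.mp (Finset.mem_coe.mp hV)
  exact hne (Finset.Subset.antisymm hsub (hV'.2 U hU'.1 hsub))

omit [Fintype X] in
theorem minFrontier_eq_empty (E : Finset (Finset X)) (S : Finset X) (Z : Finset (Finset X))
    (h : minFrontier E S Z = ∅) : frontier E S Z = ∅ := by
  by_contra hne
  obtain ⟨U, hU⟩ := Finset.exists_minimal (Finset.nonempty_iff_ne_empty.mpr hne)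
  have : U ∈ minFrontier E S Z := by
    rw [minFrontier, Finset.mem_filter]
    exact ⟨hU.1, fun V hV hVU => hU.2 hV hVU⟩
  rw [h] at this
  exact Finset.notMem_empty _ this

omit [Fintype X] in
theorem card_antichain_touch_le (E : Finset (Finset X)) (D : ℕ)
    (hwidth : ∀ x : X, ∀ A : Finset (Finset X), A ⊆ E → (∀ U ∈ A, x ∈ U) →
      IsAntichain (· ⊆ ·) (A : Set (Finset X)) → A.card ≤ D)
    (A : Finset (Finset X)) (hAE : A ⊆ E) (hA : IsAntichain (· ⊆ ·) (A : Set (Finset X)))
    (B : Finset X) (htouch : ∀ U ∈ A, ¬ Disjoint U B) : A.card ≤ D * B.card := by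
  have hsub : A ⊆ B.biUnion (fun x => A.filter (fun T => x ∈ T)) := by
    intro T hT
    have := htouch T hT
    rw [Finset.not_disjoint_iff] at this
    obtain ⟨x, hxT, hxB⟩ := this
    rw [Finset.mem_biUnion]
    exact ⟨x, hxB, Finset.mem_filter.mpr ⟨hT, hxT⟩⟩
  refine (Finset.card_le_card hsub).trans ?_
  refine Finset.card_biUnion_le.trans ?_
  rw [mul_comm]
  apply Finset.sum_le_card_nsmul
  intro x _
  apply hwidth x _ ((Finset.filter_subset _ _).trans hAE)
  · intro U hU
    exact (Finset.mem_filter.mp hU).2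
  · apply hA.subset
    intro U hU
    exact Finset.mem_coe.mpr (Finset.mem_filter.mp (Finset.mem_coe.mp hU)).1

theorem cluster_tail_base (E : Finset (Finset X))
    (C : Finset (Finset X)) (hC : ∀ R ∈ C, IsCluster E R)
    (q β : ℝ) (hq0 : 0 ≤ q) (S : Finset X) (Z : Finset (Finset X)) (hne : S.Nonempty)
    (hempty : minFrontier E S Z = ∅) :
    ∑ R ∈ C.filter (fun R => S ⊆ R ∧ ∀ T ∈ Z, ¬ T ⊆ R), q ^ R.card
        ≤ q ^ S.card * β ^ (minFrontier E S Z).card := by
  rw [hempty, Finset.card_empty, pow_zero, mul_one]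
  have hempty' := minFrontier_eq_empty E S Z hempty
  have hsub : C.filter (fun R => S ⊆ R ∧ ∀ T ∈ Z, ¬ T ⊆ R) ⊆ {S} := by
    intro R hR
    rw [Finset.mem_filter] at hR
    rw [Finset.mem_singleton]
    by_contra hneq
    obtain ⟨T, hT, hTR, hTS, hTS'⟩ := (hC R hR.1).2 S hR.2.1 hne (Ne.symm hneq)
    have hb : T ∈ frontier E S Z := by
      simp only [frontier, Finset.mem_filter]
      exact ⟨hT, fun U hU hUT => hR.2.2 U hU (hUT.trans hTR), hTS, hTS'⟩
    rw [hempty'] at hb
    exact Finset.notMem_empty T hb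
  refine (Finset.sum_le_sum_of_subset_of_nonneg hsub (fun R _ _ => by positivity)).trans ?_
  rw [Finset.sum_singleton]

theorem cluster_tail (E : Finset (Finset X)) (D : ℕ)
    (hwidth : ∀ x : X, ∀ A : Finset (Finset X), A ⊆ E → (∀ U ∈ A, x ∈ U) →
      IsAntichain (· ⊆ ·) (A : Set (Finset X)) → A.card ≤ D)
    (C : Finset (Finset X)) (hC : ∀ R ∈ C, IsCluster E R)
    (q β : ℝ) (hq0 : 0 ≤ q) (hβ : 1 ≤ β) (hβ2 : β ≤ 2) (hqβ : q * β ^ D + 1 ≤ β) :
    ∀ (n : ℕ) (S : Finset X) (Z : Finset (Finset X)), S.Nonempty →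
      (E.filter (fun U => (∀ T ∈ Z, ¬ T ⊆ U) ∧ ¬ U ⊆ S)).card ≤ n →
      ∑ R ∈ C.filter (fun R => S ⊆ R ∧ ∀ T ∈ Z, ¬ T ⊆ R), q ^ R.card
        ≤ q ^ S.card * β ^ (minFrontier E S Z).card := by
  have hβ0 : 0 ≤ β := by linarith
  intro n
  induction n with
  | zero =>
    intro S Z hne hcard
    have hempty : minFrontier E S Z = ∅ := by
      rw [Finset.eq_empty_iff_forall_notMem]
      intro T hT
      have hT' : T ∈ E.filter (fun U => (∀ T ∈ Z, ¬ T ⊆ U) ∧ ¬ U ⊆ S) := by
        simp only [minFrontier, frontier, Finset.mem_filter] at hT ⊢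
        exact ⟨hT.1.1, hT.1.2.1, hT.1.2.2.2⟩
      have : 0 < (E.filter (fun U => (∀ T ∈ Z, ¬ T ⊆ U) ∧ ¬ U ⊆ S)).card := Finset.card_pos.mpr ⟨T, hT'⟩
      omega
    exact cluster_tail_base E C hC q β hq0 S Z hne hempty
  | succ n ih =>
    intro S Z hne hcard
    by_cases hempty : minFrontier E S Z = ∅
    · exact cluster_tail_base E C hC q β hq0 S Z hne hempty
    · obtain ⟨T, hT⟩ := Finset.nonempty_iff_ne_empty.mpr hempty
      have hT0 := hT
      simp only [minFrontier, frontier, Finset.mem_filter] at hT0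
      obtain ⟨⟨hTE, hTZ, hTS, hTS'⟩, hTmin⟩ := hT0
      have hsplit : ∑ R ∈ C.filter (fun R => S ⊆ R ∧ ∀ U ∈ Z, ¬ U ⊆ R), q ^ R.card
          = ∑ R ∈ C.filter (fun R => S ∪ T ⊆ R ∧ ∀ U ∈ Z, ¬ U ⊆ R), q ^ R.card
            + ∑ R ∈ C.filter (fun R => S ⊆ R ∧ ∀ U ∈ insert T Z, ¬ U ⊆ R), q ^ R.card := by
        rw [← Finset.sum_filter_add_sum_filter_not (C.filter (fun R => S ⊆ R ∧ ∀ U ∈ Z, ¬ U ⊆ R)) (fun R => T ⊆ R)]
        rw [Finset.filter_filter, Finset.filter_filter]
        congr 1
        · apply Finset.sum_congr _ (fun _ _ => rfl)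
          apply Finset.filter_congr
          intro R _
          rw [Finset.union_subset_iff]
          tauto
        · apply Finset.sum_congr _ (fun _ _ => rfl)
          apply Finset.filter_congr
          intro R _
          rw [Finset.forall_mem_insert]
          tauto
      have hTm : T ∈ E.filter (fun U => (∀ T ∈ Z, ¬ T ⊆ U) ∧ ¬ U ⊆ S) := by
        simp only [Finset.mem_filter]
        exact ⟨hTE, hTZ, hTS'⟩
      have hc1 : (E.filter (fun U => (∀ T ∈ Z, ¬ T ⊆ U) ∧ ¬ U ⊆ S ∪ T)).card ≤ n := by
        have : E.filter (fun U => (∀ T ∈ Z, ¬ T ⊆ U) ∧ ¬ U ⊆ S ∪ T)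
            ⊆ (E.filter (fun U => (∀ T ∈ Z, ¬ T ⊆ U) ∧ ¬ U ⊆ S)).erase T := by
          intro U hU
          simp only [Finset.mem_filter, Finset.mem_erase] at hU ⊢
          refine ⟨?_, hU.1, hU.2.1, fun h => hU.2.2 (h.trans Finset.subset_union_left)⟩
          rintro rfl
          exact hU.2.2 Finset.subset_union_right
        have h2 := Finset.card_le_card this
        rw [Finset.card_erase_of_mem hTm] at h2
        omega
      have hc2 : (E.filter (fun U => (∀ T' ∈ insert T Z, ¬ T' ⊆ U) ∧ ¬ U ⊆ S)).card ≤ n := by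
        have : E.filter (fun U => (∀ T' ∈ insert T Z, ¬ T' ⊆ U) ∧ ¬ U ⊆ S)
            ⊆ (E.filter (fun U => (∀ T ∈ Z, ¬ T ⊆ U) ∧ ¬ U ⊆ S)).erase T := by
          intro U hU
          simp only [Finset.mem_filter, Finset.mem_erase, Finset.forall_mem_insert] at hU ⊢
          refine ⟨?_, hU.1, hU.2.1.2, hU.2.2⟩
          rintro rfl
          exact hU.2.1.1 (Finset.Subset.refl _)
        have h2 := Finset.card_le_card this
        rw [Finset.card_erase_of_mem hTm] at h2
        omega
      have ih1 := ih (S ∪ T) Z (hne.mono Finset.subset_union_left) hc1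
      have ih2 := ih S (insert T Z) hne hc2
      obtain ⟨f', hf'⟩ : ∃ f', (minFrontier E S Z).card = f' + 1 :=
        ⟨(minFrontier E S Z).card - 1, by have := Finset.card_pos.mpr ⟨T, hT⟩; omega⟩
      set a := (T \ S).card with ha
      have ha1 : a ≠ 0 := by
        rw [ha, Finset.card_ne_zero, Finset.sdiff_nonempty]
        exact hTS'
      have hb1 : (minFrontier E (S ∪ T) Z).card ≤ f' + D * a := by
        have hsub : minFrontier E (S ∪ T) Z ⊆ (minFrontier E S Z).erase T
            ∪ (minFrontier E (S ∪ T) Z).filter (fun U => ¬ Disjoint U (T \ S)) := by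
          intro U hU
          rw [Finset.mem_union]
          by_cases hUd : Disjoint U (T \ S)
          · left
            have hU0 := hU
            simp only [minFrontier, frontier, Finset.mem_filter] at hU0
            obtain ⟨⟨hUE, hUZ, hU1, hU2⟩, hUmin⟩ := hU0
            have hUS : ¬ Disjoint U S := by
              intro hd
              apply hU1
              rw [← Finset.union_sdiff_self_eq_union, Finset.disjoint_union_right]
              exact ⟨hd, hUd⟩
            rw [Finset.mem_erase]
            refine ⟨?_, ?_⟩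
            · rintro rfl
              exact hU2 Finset.subset_union_right
            · simp only [minFrontier, frontier, Finset.mem_filter]
              refine ⟨⟨hUE, hUZ, hUS, fun h => hU2 (h.trans Finset.subset_union_left)⟩, ?_⟩
              intro V hV hVU
              apply hUmin V _ hVU
              refine ⟨hV.1, hV.2.1, ?_, ?_⟩
              · intro hd
                exact hV.2.2.1 (hd.mono_right Finset.subset_union_left)
              · intro hVsub
                apply hV.2.2.2
                intro y hy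
                rcases Finset.mem_union.mp (hVsub hy) with h | h
                · exact h
                · by_contra hyS
                  exact Finset.disjoint_left.mp hUd (hVU hy) (Finset.mem_sdiff.mpr ⟨h, hyS⟩)
          · right
            exact Finset.mem_filter.mpr ⟨hU, hUd⟩
        refine (Finset.card_le_card hsub).trans ((Finset.card_union_le _ _).trans ?_)
        rw [Finset.card_erase_of_mem hT]
        have h1 : ((minFrontier E (S ∪ T) Z).filter (fun U => ¬ Disjoint U (T \ S))).card ≤ D * (T \ S).card := by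
          apply card_antichain_touch_le E D hwidth
          · intro U hU
            have := (Finset.mem_filter.mp hU).1
            simp only [minFrontier, frontier, Finset.mem_filter] at this
            exact this.1.1
          · apply (minFrontier_antichain E (S ∪ T) Z).subset
            intro U hU
            exact Finset.mem_coe.mpr (Finset.mem_filter.mp (Finset.mem_coe.mp hU)).1
          · intro U hU
            exact (Finset.mem_filter.mp hU).2
        rw [← ha] at h1
        omega
      have hb2 : (minFrontier E S (insert T Z)).card ≤ f' := by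
        have : minFrontier E S (insert T Z) ⊆ (minFrontier E S Z).erase T := by
          intro U hU
          simp only [minFrontier, frontier, Finset.mem_filter, Finset.forall_mem_insert] at hU
          obtain ⟨⟨hUE, ⟨hUT, hUZ⟩, hU1, hU2⟩, hUmin⟩ := hU
          rw [Finset.mem_erase]
          refine ⟨?_, ?_⟩
          · rintro rfl
            exact hUT (Finset.Subset.refl _)
          · simp only [minFrontier, frontier, Finset.mem_filter]
            refine ⟨⟨hUE, hUZ, hU1, hU2⟩, ?_⟩
            intro V hV hVU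
            apply hUmin V _ hVU
            exact ⟨hV.1, ⟨fun h => hUT (h.trans hVU), hV.2.1⟩, hV.2.2.1, hV.2.2.2⟩
        have h2 := Finset.card_le_card this
        rw [Finset.card_erase_of_mem hT] at h2
        omega
      have hcardU : (S ∪ T).card = S.card + a := by
        rw [← Finset.union_sdiff_self_eq_union, Finset.card_union_of_disjoint Finset.disjoint_sdiff]
      rw [hsplit, hf']
      rw [hcardU] at ih1
      have h3 : q ^ (S.card + a) * β ^ (minFrontier E (S ∪ T) Z).card ≤ q ^ (S.card + a) * β ^ (f' + D * a) :=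
        mul_le_mul_of_nonneg_left (pow_le_pow_right₀ hβ hb1) (by positivity)
      have h3' : q ^ S.card * β ^ (minFrontier E S (insert T Z)).card ≤ q ^ S.card * β ^ f' :=
        mul_le_mul_of_nonneg_left (pow_le_pow_right₀ hβ hb2) (by positivity)
      have h4 : q ^ (S.card + a) * β ^ (f' + D * a) + q ^ S.card * β ^ f'
          = q ^ S.card * β ^ f' * ((q * β ^ D) ^ a + 1) := by
        rw [pow_add, pow_add, pow_mul, mul_pow]
        ring
      have hx0 : 0 ≤ q * β ^ D := by positivity
      have hx1 : q * β ^ D ≤ 1 := by linarith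
      have h45 : (q * β ^ D) ^ a ≤ q * β ^ D := pow_le_of_le_one hx0 hx1 ha1
      have h5 : q ^ S.card * β ^ f' * ((q * β ^ D) ^ a + 1) ≤ q ^ S.card * β ^ f' * β :=
        mul_le_mul_of_nonneg_left (by linarith) (by positivity)
      have h6 : q ^ S.card * β ^ (f' + 1) = q ^ S.card * β ^ f' * β := by ring
      linarith

theorem one_add_inv_pow_le' (D : ℕ) (hD : 1 ≤ D) : (1 + 1 / (D : ℝ)) ^ D ≤ 3 := by
  have hD0 : (0 : ℝ) < D := by exact_mod_cast hD
  have h1 : 1 + 1 / (D : ℝ) ≤ Real.exp (1 / (D : ℝ)) := by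
    have := Real.add_one_le_exp (1 / (D : ℝ))
    linarith
  have h2 : (1 + 1 / (D : ℝ)) ^ D ≤ Real.exp (1 / (D : ℝ)) ^ D :=
    pow_le_pow_left₀ (by positivity) h1 D
  have h3 : Real.exp (1 / (D : ℝ)) ^ D = Real.exp 1 := by
    rw [← Real.exp_nat_mul]
    congr 1
    field_simp
  have := Real.exp_one_lt_d9
  linarith

/-- Support on the connected sets of a hypergraph `E` of local width at most `D`. -/
theorem cluster_support (E : Finset (Finset X)) (D : ℕ) (hD : 1 ≤ D)
    (hwidth : ∀ x : X, ∀ A : Finset (Finset X), A ⊆ E → (∀ U ∈ A, x ∈ U) →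
      IsAntichain (· ⊆ ·) (A : Set (Finset X)) → A.card ≤ D)
    (F : Finset (Finset X))
    (p : ℝ) (hp0 : 0 ≤ p) (hp1 : p ≤ 1) (g : Finset X → ℝ) (hg : IsFracCover g F)
    (hsupp : ∀ S, g S ≠ 0 → S = ∅ ∨ IsCluster E S)
    (hcost : fracCost g p ≤ 1 / 2) :
    IsSmall F (p / (7077888 * D)) := by
  classical
  have hD0 : (0 : ℝ) < D := by exact_mod_cast hD
  have hD1 : (1 : ℝ) ≤ D := by exact_mod_cast hD
  set C : Finset (Finset X) := Finset.univ.filter (fun R => IsCluster E R) with hCDef
  have hC : ∀ R ∈ C, IsCluster E R := fun R hR => (Finset.mem_filter.mp hR).2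
  set q : ℝ := p / (9 * D) with hq
  have hq0 : 0 ≤ q := by positivity
  set β : ℝ := 1 + 1 / (D : ℝ) with hβdef
  have hβ : 1 ≤ β := by
    have : 0 ≤ 1 / (D : ℝ) := by positivity
    linarith
  have hβ2 : β ≤ 2 := by
    have : 1 / (D : ℝ) ≤ 1 := by
      rw [div_le_one hD0]; exact hD1
    linarith
  have hβ3 : β ^ D ≤ 3 := one_add_inv_pow_le' D hD
  have hq3 : 3 * q ≤ 1 / (D : ℝ) := by
    rw [hq]
    rw [le_div_iff₀ hD0]
    have : 3 * (p / (9 * (D : ℝ))) * D = p / 3 := by field_simp; ring
    rw [this]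
    linarith
  have hqβ : q * β ^ D + 1 ≤ β := by
    have : q * β ^ D ≤ q * 3 := mul_le_mul_of_nonneg_left hβ3 hq0
    linarith
  have h := core F C
    (by
      intro R hR R' hR' hnd
      rw [hCDef, Finset.mem_filter]
      exact ⟨Finset.mem_univ _, (hC R hR).union (hC R' hR') hnd⟩)
    p q hp0 hq0
    (by
      intro S _ hne
      have h1 := cluster_tail E D hwidth C hC q β hq0 hβ hβ2 hqβ _ S ∅ hne le_rfl
      have h2 : C.filter (fun R => S ⊆ R ∧ ∀ T ∈ (∅ : Finset (Finset X)), ¬ T ⊆ R) = C.filter (fun R => S ⊆ R) := by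
        apply Finset.filter_congr
        intro R _
        simp
      rw [h2] at h1
      refine h1.trans ?_
      have hfr : (minFrontier E S ∅).card ≤ D * S.card := by
        apply card_antichain_touch_le E D hwidth _ _ (minFrontier_antichain E S ∅)
        · intro U hU
          simp only [minFrontier, frontier, Finset.mem_filter] at hU
          exact hU.1.2.2.1
        · intro U hU
          simp only [minFrontier, frontier, Finset.mem_filter] at hU
          exact hU.1.1
      have h3 : β ^ (minFrontier E S ∅).card ≤ β ^ (D * S.card) := pow_le_pow_right₀ hβ hfr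
      have h4 : β ^ (D * S.card) ≤ 3 ^ S.card := by
        rw [pow_mul]
        exact pow_le_pow_left₀ (by positivity) hβ3 _
      have h5 : q ^ S.card * β ^ (minFrontier E S ∅).card ≤ q ^ S.card * 3 ^ S.card :=
        mul_le_mul_of_nonneg_left (h3.trans h4) (by positivity)
      refine h5.trans ?_
      rw [← mul_pow]
      have h6 : q * 3 ≤ p / 3 := by
        rw [hq]
        rw [div_mul_eq_mul_div, div_le_div_iff₀ (by positivity) (by norm_num)]
        nlinarith
      have hs : 1 ≤ S.card := Finset.card_pos.mpr hne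
      have h7 : (q * 3) ^ S.card ≤ (p / 3) ^ S.card := pow_le_pow_left₀ (by positivity) h6 _
      refine h7.trans ?_
      rw [div_pow]
      apply div_le_div_of_nonneg_left (by positivity) (by norm_num)
      calc (3:ℝ) = 3 ^ 1 := by norm_num
        _ ≤ 3 ^ S.card := pow_le_pow_right₀ (by norm_num) hs)
    g hg
    (by
      intro S hS
      rcases hsupp S hS with h | h
      · exact Or.inl h
      · right
        exact Finset.mem_filter.mpr ⟨Finset.mem_univ _, h⟩)
    hcost
  have e1 : p / (7077888 * (D : ℝ)) = q / 786432 := by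
    rw [hq]; field_simp; ring
  rw [e1]
  exact h

/-- Support of local width at most `D`. -/
theorem local_width_support (D : ℕ) (hD : 1 ≤ D) (F : Finset (Finset X))
    (p : ℝ) (hp0 : 0 ≤ p) (hp1 : p ≤ 1) (g : Finset X → ℝ) (hg : IsFracCover g F)
    (hwidth : ∀ x : X, ∀ A : Finset (Finset X), (∀ S ∈ A, g S ≠ 0 ∧ x ∈ S) →
      IsAntichain (· ⊆ ·) (A : Set (Finset X)) → A.card ≤ D)
    (hcost : fracCost g p ≤ 1 / 2) :
    IsSmall F (p / (7077888 * D)) := by
  classical
  apply cluster_support (Finset.univ.filter (fun S : Finset X => g S ≠ 0)) D hD _ F p hp0 hp1 g hg _ hcost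
  · intro x A hA hx hanti
    exact hwidth x A (fun S hS => ⟨(Finset.mem_filter.mp (hA hS)).2, hx S hS⟩) hanti
  · intro S hS
    by_cases hSe : S = ∅
    · exact Or.inl hSe
    · right
      exact isCluster_of_mem (Finset.mem_filter.mpr ⟨Finset.mem_univ _, hS⟩)
        (Finset.nonempty_iff_ne_empty.mpr hSe)

/-- Support of maximum degree at most `D`. -/
theorem bounded_degree_support (D : ℕ) (hD : 1 ≤ D) (F : Finset (Finset X))
    (p : ℝ) (hp0 : 0 ≤ p) (hp1 : p ≤ 1) (g : Finset X → ℝ) (hg : IsFracCover g F)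
    (hdeg : ∀ x : X, (Finset.univ.filter (fun S : Finset X => g S ≠ 0 ∧ x ∈ S)).card ≤ D)
    (hcost : fracCost g p ≤ 1 / 2) :
    IsSmall F (p / (7077888 * D)) := by
  classical
  apply local_width_support D hD F p hp0 hp1 g hg _ hcost
  intro x A hA _
  refine le_trans (Finset.card_le_card ?_) (hdeg x)
  intro S hS
  exact Finset.mem_filter.mpr ⟨Finset.mem_univ _, hA S hS⟩

/-- Support contained in a union of `D` laminar families. -/
theorem union_laminar_support (D : ℕ) (hD : 1 ≤ D) (L : Fin D → Finset (Finset X))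
    (hlam : ∀ i, ∀ S ∈ L i, ∀ T ∈ L i, S ⊆ T ∨ T ⊆ S ∨ Disjoint S T)
    (F : Finset (Finset X))
    (p : ℝ) (hp0 : 0 ≤ p) (hp1 : p ≤ 1) (g : Finset X → ℝ) (hg : IsFracCover g F)
    (hsupp : ∀ S, g S ≠ 0 → ∃ i, S ∈ L i)
    (hcost : fracCost g p ≤ 1 / 2) :
    IsSmall F (p / (7077888 * D)) := by
  classical
  apply local_width_support D hD F p hp0 hp1 g hg _ hcost
  intro x A hA hanti
  have : Nonempty (Fin D) := ⟨⟨0, hD⟩⟩
  choose! idx hidx using hsupp
  have hinj : Set.InjOn idx (A : Set (Finset X)) := by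
    intro S hS T hT hST
    by_contra hne
    have hS' := hA S hS
    have hT' := hA T hT
    have h1 := hidx S hS'.1
    have h2 := hidx T hT'.1
    rw [hST] at h1
    rcases hlam _ S h1 T h2 with h | h | h
    · exact hanti hS hT hne h
    · exact hanti hT hS (Ne.symm hne) h
    · exact Finset.disjoint_left.mp h hS'.2 hT'.2
  have := Finset.card_le_card_of_injOn idx (fun S _ => Finset.mem_univ (idx S)) hinj
  simpa using this

end Vale.Agent.Lib.P034
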